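import Vale.Agent.P195S.Asm
import Vale.Agent.P195D.TwoCols

/-!
# P195: the Auslander-Reiten conjecture is false

For every field `k` of characteristic zero there are a finite-dimensional `k`-algebra `R` and a
finitely generated `R`-module `M` with `Ext^i(M, M) = 0 = Ext^i(M, R)` for all `i ≥ 1` which is
not projective.
-/

open CategoryTheory Abelian

theorem Vale.Agent.Results.P195.ARFalse.result (k : Type) [Field k] [CharZero k] :
    ∃ (R : Type) (_ : Ring R) (_ : Algebra k R) (M : ModuleCat.{0} R),
      Module.Finite k R ∧ Module.Finite R M ∧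
      (∀ i : ℕ, 1 ≤ i →
        Subsingleton (Ext M M i) ∧ Subsingleton (Ext M (ModuleCat.of R R) i)) ∧
      ¬ Module.Projective R M :=
  P195S.ar_false k
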