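import Vale.Agent.P195S.Asm
import Vale.Agent.P195D.Wording

/-!
# P195: the Auslander-Reiten conjecture for Artin algebras is false (literal negation)
-/

open CategoryTheory Abelian

theorem Vale.Agent.Results.P195.ArtinAlgebras.result :
    ¬ ∀ (Z R : Type) (_ : CommRing Z) (_ : IsArtinianRing Z) (_ : Ring R) (_ : Algebra Z R)
        (M : ModuleCat.{0} R), Module.Finite Z R → Module.Finite R M →
        (∀ i : ℕ, 1 ≤ i → Subsingleton (Ext M (ModuleCat.of R (M × R)) i)) →
        Module.Projective R M :=
  P195D.literal_of_exists (P195S.ar_false ℚ)
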