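import Vale.Agent.P195.Defs
import Vale.Agent.P195.MainC

open CategoryTheory Abelian Vale.Agent.P195

universe u v

theorem Vale.Agent.Results.P195.RadCubeIT.result
    (k : Type v) (R : Type u) [CommRing k] [IsArtinianRing k] [Ring R]
    [Algebra k R] [Module.Finite k R] :
    (IsIgusaTodorov R → ∀ M : ModuleCat.{u} R, Module.Finite R M →
      (∀ i, 1 ≤ i → ExtVanish M i) → Module.Projective R M) ∧
    (Ring.jacobson R ^ 3 = ⊥ → ∀ M : ModuleCat.{u} R, Module.Finite R M →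
      (∀ i, 1 ≤ i → ExtVanish M i) → Module.Projective R M) ∧
    (Ring.jacobson R ^ 3 = ⊥ → ∀ (r : ℕ) (S : Fin r → ModuleCat.{u} R),
      (∀ i, IsSimpleModule R (S i)) →
      (∀ X : ModuleCat.{u} R, IsSimpleModule R X → ∃ i, Nonempty (X ≃ₗ[R] S i)) →
      ∀ M : ModuleCat.{u} R, Module.Finite R M →
        (∀ i, 1 ≤ i → i ≤ 2 * r + 2 → ExtVanish M i) → Module.Projective R M) ∧
    (∀ n : ℕ, 1 ≤ n → Ring.jacobson R ^ (2 * n + 1) = ⊥ →
      ∀ (r : ℕ) (V : Fin r → ModuleCat.{u} R), (∀ i, Module.Finite R (V i)) →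
      (∀ X : ModuleCat.{u} R, Module.Finite R X →
        Ring.jacobson R ^ n • (⊤ : Submodule R X) = ⊥ → IsSumOf V X) →
      ∀ M : ModuleCat.{u} R, Module.Finite R M →
        (∀ i, 1 ≤ i → i ≤ 2 * r + 2 → ExtVanish M i) → Module.Projective R M) ∧
    (∀ (r : ℕ) (V : Fin r → ModuleCat.{u} R), (∀ i, Module.Finite R (V i)) →
      ∀ M : ModuleCat.{u} R, Module.Finite R M → (∀ i, 1 ≤ i → ExtVanish M i) →
        ¬ Module.Projective R M → ∀ T : Finset ℕ,
          (∀ m ∈ T, 2 ≤ m ∧ ∃ K, IsSyzygy M m K ∧ TwoTerm V K) → T.card ≤ 2 * r) := by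
  refine ⟨?_, ?_, ?_, ?_, ?_⟩
  · intro hIT M hM h
    exact mainIT k hIT h
  · intro hJ M hM h
    have hR : IsArtinianRing R := isArtinian_of_tower k inferInstance
    obtain ⟨r, S, hS1, hS2⟩ := exists_simple_list (R := R)
    exact mainCube k hJ S hS1 hS2 (fun j hj _ => h j hj)
  · intro hJ r S hS1 hS2 M hM h
    exact mainCube k hJ S hS1 hS2 h
  · intro n hn hJ r V hVf hV M hM h
    exact mainB k hn hJ V hV h
  · intro r V hVf M hM h hnp T hT
    by_contra hcard
    apply hnp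
    refine mainA k (N := T.sup id + 1) (fun j hj _ => h j hj) V T ?_ (by lia)
    intro m hm
    obtain ⟨h1, hK⟩ := hT m hm
    refine ⟨h1, ?_, hK⟩
    have := Finset.le_sup (f := id) hm
    simp only [id] at this
    lia
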